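import Mathlib

/-! P038: second neighbourhoods in oriented graphs. -/

namespace Vale.Agent.P038

open Finset

/-- the out-neighbours of `v` -/
def N1 {V : Type} [Fintype V] (r : V → V → Prop) [DecidableRel r] (v : V) : Finset V :=
  univ.filter fun u => r v u

open Classical in
/-- the vertices at directed distance exactly two from `v` -/
noncomputable def N2 {V : Type} [Fintype V] (r : V → V → Prop) (v : V) : Finset V :=
  univ.filter fun w => w ≠ v ∧ ¬ r v w ∧ ∃ u, r v u ∧ r u w

/-- adjacency in the underlying graph -/
def Adj {V : Type} (r : V → V → Prop) (a b : V) : Prop := r a b ∨ r b a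

end Vale.Agent.P038
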