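import Vale.Agent.Lib.P038.Defs

/-! P038: oriented graphs without `K_4`. -/

namespace Vale.Agent.P038

open Finset

section

variable {V : Type} [Fintype V] [DecidableEq V] (r : V → V → Prop) [DecidableRel r]

/-- arc indicator -/
def io (a b : V) : ℝ := if r a b then 1 else 0

omit [Fintype V] [DecidableEq V] in
theorem io_nonneg (a b : V) : 0 ≤ io r a b := by unfold io; split_ifs <;> norm_num

omit [Fintype V] [DecidableEq V] in
theorem sum_io (X : Finset V) (u : V) (f : V → ℝ) :
    ∑ p ∈ X, io r u p * f p = ∑ p ∈ X.filter (fun p => r u p), f p := by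
  rw [sum_filter]
  refine sum_congr rfl fun p _ => ?_
  unfold io
  split_ifs <;> simp

omit [Fintype V] [DecidableEq V] in
theorem sum_io_one (X : Finset V) (u : V) :
    ∑ p ∈ X, io r u p = ((X.filter (fun p => r u p)).card : ℝ) := by
  have h := sum_io r X u (fun _ => 1)
  simp only [mul_one, sum_const, nsmul_eq_mul] at h
  exact h

omit [Fintype V] [DecidableEq V] in
theorem deg_eq (hor : ∀ a b, r a b → ¬ r b a) (X : Finset V) (x : V) :
    ∑ q ∈ X, (io r x q + io r q x) = ((X.filter (fun q => r x q ∨ r q x)).card : ℝ) := by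
  rw [card_filter]
  push_cast
  refine sum_congr rfl fun q _ => ?_
  unfold io
  by_cases h1 : r x q
  · have h2 := hor _ _ h1
    simp [h1, h2]
  · by_cases h2 : r q x <;> simp [h1, h2]

omit [Fintype V] in
theorem mantel (hor : ∀ a b, r a b → ¬ r b a) (X : Finset V)
    (htri : ∀ a ∈ X, ∀ b ∈ X, ∀ c ∈ X, Adj r a b → Adj r a c → Adj r b c → False) :
    4 * ∑ u ∈ X, ∑ q ∈ X, io r u q ≤ (X.card : ℝ) ^ 2 := by
  rcases X.eq_empty_or_nonempty with rfl | hne
  · simp
  obtain ⟨p, hp, hmax⟩ := exists_max_image X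
    (fun x => (X.filter (fun q => r x q ∨ r q x)).card) hne
  set N : Finset V := X.filter (fun q => r p q ∨ r q p) with hN
  set g : V → ℝ := fun x => if x ∈ N then 0 else 1 with hg
  have hg0 : ∀ x, 0 ≤ g x := by intro x; simp only [hg]; split_ifs <;> norm_num
  have h1 : ∀ u ∈ X, ∀ q ∈ X, io r u q ≤ io r u q * g u + io r u q * g q := by
    intro u hu q hq
    by_cases h : r u q
    · have h2 : ¬ (u ∈ N ∧ q ∈ N) := by
        rintro ⟨h3, h4⟩
        rw [hN, mem_filter] at h3 h4
        exact htri p hp u hu q hq h3.2 h4.2 (Or.inl h)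
      simp only [io, h, if_true, hg, one_mul]
      by_cases h3 : u ∈ N
      · have h4 : q ∉ N := fun h4 => h2 ⟨h3, h4⟩
        simp [h3, h4]
      · simp only [h3, if_false]
        split_ifs <;> norm_num
    · simp [io, h]
  have h2 : ∑ u ∈ X, ∑ q ∈ X, io r u q ≤ ∑ x ∈ X, g x * ∑ q ∈ X, (io r x q + io r q x) := by
    calc ∑ u ∈ X, ∑ q ∈ X, io r u q ≤ ∑ u ∈ X, ∑ q ∈ X, (io r u q * g u + io r u q * g q) :=
          sum_le_sum fun u hu => sum_le_sum fun q hq => h1 u hu q hq
      _ = ∑ u ∈ X, ∑ q ∈ X, io r u q * g u + ∑ u ∈ X, ∑ q ∈ X, io r u q * g q := by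
          rw [← sum_add_distrib]
          exact sum_congr rfl fun u _ => sum_add_distrib
      _ = ∑ u ∈ X, ∑ q ∈ X, io r u q * g u + ∑ q ∈ X, ∑ u ∈ X, io r u q * g q := by
          rw [sum_comm (f := fun u q => io r u q * g q)]
      _ = _ := by
          rw [← sum_add_distrib]
          refine sum_congr rfl fun x _ => ?_
          rw [mul_sum, ← sum_add_distrib]
          exact sum_congr rfl fun q _ => by ring
  have h3 : ∑ x ∈ X, g x * ∑ q ∈ X, (io r x q + io r q x) ≤ ∑ x ∈ X, g x * N.card := by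
    refine sum_le_sum fun x hx => mul_le_mul_of_nonneg_left ?_ (hg0 x)
    rw [deg_eq r hor]
    exact_mod_cast hmax x hx
  have h4 : ∑ x ∈ X, g x = (X.card : ℝ) - N.card := by
    have h5 : ∑ x ∈ X, g x = ((X.filter (fun x => x ∉ N)).card : ℝ) := by
      rw [card_filter]
      push_cast
      refine sum_congr rfl fun x _ => ?_
      simp only [hg]
      by_cases h : x ∈ N <;> simp [h]
    have h6 : X.filter (fun x => x ∉ N) = X \ N := by
      ext x; simp [mem_sdiff]
    rw [h5, h6, card_sdiff_of_subset (filter_subset _ _), Nat.cast_sub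
      (card_le_card (filter_subset _ _))]
  rw [← sum_mul, h4] at h3
  nlinarith [sq_nonneg ((X.card : ℝ) - 2 * N.card)]

theorem mem_N1 (v u : V) : u ∈ N1 r v ↔ r v u := by simp [N1]

theorem mem_N2 (v w : V) : w ∈ N2 r v ↔ w ≠ v ∧ ¬ r v w ∧ ∃ u, r v u ∧ r u w := by
  classical
  simp [N2]

theorem main [Nonempty V] (hor : ∀ a b, r a b → ¬ r b a)
    (hK : ∀ a b c d, Adj r a b → Adj r a c → Adj r a d → Adj r b c → Adj r b d → Adj r c d →
      False) :
    ∃ v, (79 / 100 : ℝ) * (N1 r v).card ≤ (N2 r v).card := by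
  by_contra hcon
  push Not at hcon
  obtain ⟨v, -, hmin⟩ := exists_min_image (univ : Finset V) (fun x => (N1 r x).card)
    univ_nonempty
  set X := N1 r v with hX
  set Y := N2 r v with hY
  set d : ℝ := (X.card : ℝ) with hd
  have hYd : (Y.card : ℝ) < 79 / 100 * d := hcon v
  have hd0 : 0 < d := by
    have : (0:ℝ) ≤ Y.card := Nat.cast_nonneg _
    linarith
  have hmin' : ∀ x, d ≤ ((N1 r x).card : ℝ) := fun x =>
    Nat.cast_le.2 (hmin x (mem_univ x))
  have hmX : ∀ u, u ∈ X ↔ r v u := fun u => mem_N1 r v u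
  have hmY : ∀ w, w ∈ Y ↔ w ≠ v ∧ ¬ r v w ∧ ∃ u, r v u ∧ r u w := fun w => mem_N2 r v w
  -- out-neighbours of vertices of X
  have hsub : ∀ u ∈ X, ∀ w, r u w → w ∈ X ∨ w ∈ Y := by
    intro u hu w hw
    by_cases h : r v w
    · exact Or.inl ((hmX w).2 h)
    · refine Or.inr ((hmY w).2 ⟨?_, h, u, (hmX u).1 hu, hw⟩)
      rintro rfl
      exact hor _ _ ((hmX u).1 hu) hw
  set P : V → Finset V := fun u => X.filter (fun p => r u p) with hP
  set W : V → Finset V := fun u => Y.filter (fun p => r u p) with hW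
  have hN1 : ∀ u ∈ X, ((N1 r u).card : ℝ) = (P u).card + (W u).card := by
    intro u hu
    have h1 : N1 r u = P u ∪ W u := by
      ext w
      rw [mem_N1, mem_union, mem_filter, mem_filter]
      constructor
      · intro h
        rcases hsub u hu w h with h2 | h2
        · exact Or.inl ⟨h2, h⟩
        · exact Or.inr ⟨h2, h⟩
      · rintro (h | h) <;> exact h.2
    have h2 : Disjoint (P u) (W u) := by
      rw [disjoint_left]
      intro w h3 h4
      rw [mem_filter] at h3 h4
      exact ((hmY w).1 h4.1).2.1 ((hmX w).1 h3.1)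
    rw [h1, card_union_of_disjoint h2]
    push_cast
    rfl
  set a : V → ℝ := fun u => ((P u).card : ℝ) with ha
  set s : V → ℝ := fun u => a u - 21 / 100 * d with hs
  have hWle : ∀ u ∈ X, d - a u ≤ (W u).card := by
    intro u hu
    have h1 := hmin' u
    rw [hN1 u hu] at h1
    simp only [ha]
    linarith
  have hmiss : ∀ u ∈ X, ((Y.filter (fun y => ¬ r u y)).card : ℝ) ≤ s u := by
    intro u hu
    have h1 : (Y.filter (fun y => r u y)).card + (Y.filter (fun y => ¬ r u y)).card = Y.card :=
      card_filter_add_card_filter_not _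
    have h2 : ((W u).card : ℝ) + ((Y.filter (fun y => ¬ r u y)).card : ℝ) = Y.card := by
      exact_mod_cast h1
    have h3 := hWle u hu
    simp only [hs]
    linarith
  have hs0 : ∀ u ∈ X, 0 ≤ s u := fun u hu => (Nat.cast_nonneg _).trans (hmiss u hu)
  -- X is triangle-free
  have htri : ∀ p ∈ X, ∀ q ∈ X, ∀ w ∈ X, Adj r p q → Adj r p w → Adj r q w → False := by
    intro p hp q hq w hw h1 h2 h3
    exact hK v p q w (Or.inl ((hmX p).1 hp)) (Or.inl ((hmX q).1 hq)) (Or.inl ((hmX w).1 hw))
      h1 h2 h3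
  have hman := mantel r hor X htri
  have haeq : ∀ u, ∑ q ∈ X, io r u q = a u := fun u => sum_io_one r X u
  have hsum_a : ∑ u ∈ X, a u ≤ d ^ 2 / 4 := by
    rw [sum_congr rfl fun u _ => haeq u] at hman
    linarith
  have hsum_s : ∑ u ∈ X, s u ≤ 4 / 100 * d ^ 2 := by
    simp only [hs]
    rw [sum_sub_distrib, sum_const, nsmul_eq_mul]
    nlinarith
  -- indegrees inside X
  set b : V → ℝ := fun p => ∑ q ∈ X, io r q p with hb
  have hb_le : ∀ p ∈ X, b p ≤ 58 / 100 * d := by
    intro p hp
    have hdeg : a p + b p = ((X.filter (fun q => r p q ∨ r q p)).card : ℝ) := by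
      rw [← deg_eq r hor X p, sum_add_distrib, haeq]
    have hap := hs0 p hp
    simp only [hs] at hap
    rcases (X.filter (fun q => r p q ∨ r q p)).eq_empty_or_nonempty with h0 | ⟨q, hq⟩
    · rw [h0, card_empty] at hdeg
      have : (0:ℝ) ≤ a p := Nat.cast_nonneg _
      push_cast at hdeg
      linarith
    · rw [mem_filter] at hq
      have haq := hs0 q hq.1
      simp only [hs] at haq
      have h1 : P q ⊆ X \ X.filter (fun q => r p q ∨ r q p) := by
        intro w hw
        rw [mem_filter] at hw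
        rw [mem_sdiff, mem_filter]
        exact ⟨hw.1, fun h => htri p hp q hq.1 w hw.1 hq.2 h.2 (Or.inl hw.2)⟩
      have h2 := card_le_card h1
      rw [card_sdiff_of_subset (filter_subset _ _)] at h2
      have h3 : (X.filter (fun q => r p q ∨ r q p)).card ≤ X.card :=
        card_le_card (filter_subset _ _)
      have h4 : a q ≤ d - ((X.filter (fun q => r p q ∨ r q p)).card : ℝ) := by
        have h5 : ((P q).card : ℝ) ≤ ((X.card - (X.filter (fun q => r p q ∨ r q p)).card : ℕ) : ℝ) :=
          by exact_mod_cast h2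
        rw [Nat.cast_sub h3] at h5
        exact h5
      linarith
  -- choice of u
  set S : V → ℝ := fun u => ∑ p ∈ X, io r u p * s p with hS
  have hS0 : ∀ u, 0 ≤ S u := fun u => sum_nonneg fun p hp => mul_nonneg (io_nonneg r u p) (hs0 p hp)
  have hsum_S : ∑ u ∈ X, S u ≤ 58 / 100 * d * (4 / 100 * d ^ 2) := by
    simp only [hS]
    rw [sum_comm]
    calc ∑ p ∈ X, ∑ u ∈ X, io r u p * s p = ∑ p ∈ X, b p * s p :=
          sum_congr rfl fun p _ => by rw [← sum_mul]
      _ ≤ ∑ p ∈ X, 58 / 100 * d * s p :=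
          sum_le_sum fun p hp => mul_le_mul_of_nonneg_right (hb_le p hp) (hs0 p hp)
      _ = 58 / 100 * d * ∑ p ∈ X, s p := by rw [mul_sum]
      _ ≤ _ := mul_le_mul_of_nonneg_left hsum_s (by linarith)
  have hXne : X.Nonempty := by
    rw [← card_pos]
    have : (0:ℝ) < X.card := hd0
    exact_mod_cast this
  obtain ⟨u, hu, hchoice⟩ : ∃ u ∈ X, S u + d / 8 * s u ≤ 282 / 10000 * d ^ 2 := by
    apply exists_le_of_sum_le hXne
    rw [sum_add_distrib, ← mul_sum, sum_const, nsmul_eq_mul]
    have h1 : d / 8 * ∑ u ∈ X, s u ≤ d / 8 * (4 / 100 * d ^ 2) :=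
      mul_le_mul_of_nonneg_left hsum_s (by linarith)
    have h2 : (X.card : ℝ) * (282 / 10000 * d ^ 2) =
        58 / 100 * d * (4 / 100 * d ^ 2) + d / 8 * (4 / 100 * d ^ 2) := by
      rw [← hd]; ring
    linarith
  have hsu := hs0 u hu
  have hau : 21 / 100 * d ≤ a u := by
    simp only [hs] at hsu
    linarith
  have hSu : S u = ∑ p ∈ P u, s p := sum_io r X u s
  have hPne : (P u).Nonempty := by
    rw [← card_pos]
    have : (0:ℝ) < (P u).card := by
      have : 0 < a u := by linarith
      exact this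
    exact_mod_cast this
  obtain ⟨u', hu', hchoice'⟩ : ∃ p ∈ P u, s p * a u ≤ S u := by
    apply exists_le_of_sum_le hPne
    rw [← sum_mul, ← hSu, sum_const, nsmul_eq_mul]
    exact le_of_eq (by simp only [ha]; ring)
  rw [mem_filter] at hu'
  have hs'0 := hs0 u' hu'.1
  have hs' : 21 / 100 * d * s u' ≤ S u := by nlinarith
  -- common out-neighbours in Y
  set C : Finset V := (W u).filter (fun y => r u' y) with hC
  have hWC : (((W u).filter (fun y => ¬ r u' y)).card : ℝ) ≤ s u' := by
    refine le_trans ?_ (hmiss u' hu'.1)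
    exact_mod_cast card_le_card (filter_subset_filter _ (filter_subset _ _))
  have hCc : 79 / 100 * d - s u - s u' ≤ (C.card : ℝ) := by
    have h1 : (C.card : ℝ) + (((W u).filter (fun y => ¬ r u' y)).card : ℝ) = (W u).card := by
      exact_mod_cast card_filter_add_card_filter_not (s := W u) (fun y => r u' y)
    have h2 := hWle u hu
    have e : a u = s u + 21 / 100 * d := by simp only [hs]; ring
    linarith
  have hsu' : s u ≤ 2256 / 10000 * d := by
    have h1 : d / 8 * s u ≤ 282 / 10000 * d ^ 2 := by linarith [hS0 u]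
    by_contra hc
    push Not at hc
    have h2 : d / 8 * (2256 / 10000 * d) < d / 8 * s u :=
      mul_lt_mul_of_pos_left hc (by linarith)
    nlinarith
  have hs'b : s u' ≤ 1343 / 10000 * d - 595 / 1000 * s u := by
    by_contra hc
    push Not at hc
    have h2 : d * (1343 / 10000 * d - 595 / 1000 * s u) < d * s u' :=
      mul_lt_mul_of_pos_left hc hd0
    have h3 : 0 ≤ d * s u := mul_nonneg hd0.le hsu
    nlinarith
  have hC56 : 56 / 100 * d ≤ (C.card : ℝ) := by linarith
  have hCne : C.Nonempty := by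
    rw [← card_pos]
    have : (0:ℝ) < C.card := by linarith
    exact_mod_cast this
  -- choice of y
  obtain ⟨y, hy, hychoice⟩ : ∃ y ∈ C, (((P u).filter (fun p => r y p)).card : ℝ) * C.card ≤
      S u := by
    apply exists_le_of_sum_le hCne
    rw [← sum_mul, sum_const, nsmul_eq_mul, mul_comm]
    refine mul_le_mul_of_nonneg_left ?_ (Nat.cast_nonneg _)
    have h1 : ∀ y, (((P u).filter (fun p => r y p)).card : ℝ) = ∑ p ∈ P u, io r y p := fun y =>
      (sum_io_one r (P u) y).symm
    rw [sum_congr rfl fun y _ => h1 y, sum_comm, hSu]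
    refine sum_le_sum fun p hp => ?_
    rw [mem_filter] at hp
    refine le_trans ?_ (hmiss p hp.1)
    have h2 : ∑ y ∈ C, io r y p = ((C.filter (fun y => r y p)).card : ℝ) := by
      rw [card_filter]
      push_cast
      rfl
    rw [h2]
    have h3 : C.filter (fun y => r y p) ⊆ Y.filter (fun y => ¬ r p y) := by
      intro y hy
      rw [mem_filter] at hy ⊢
      have h4 := hy.1
      rw [hC, mem_filter] at h4
      have h5 := h4.1
      rw [mem_filter] at h5
      exact ⟨h5.1, hor _ _ hy.2⟩
    exact_mod_cast card_le_card h3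
  have hyC := hy
  rw [hC, mem_filter] at hyC
  have hyW := hyC.1
  rw [mem_filter] at hyW
  set z : ℝ := (((P u).filter (fun p => r y p)).card : ℝ) with hz
  have hz0 : 0 ≤ z := Nat.cast_nonneg _
  -- second neighbourhood of u
  have h1 : N1 r y \ ((P u).filter (fun p => r y p) ∪ (W u).filter (fun w => ¬ r u' w)) ⊆
      N2 r u := by
    intro w hw
    rw [mem_sdiff, mem_N1, mem_union, mem_filter, mem_filter, mem_filter, mem_filter] at hw
    rw [mem_N2]
    refine ⟨?_, ?_, y, hyW.2, hw.1⟩
    · rintro rfl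
      exact hor _ _ hyW.2 hw.1
    · intro huw
      apply hw.2
      rcases hsub u hu w huw with h2 | h2
      · exact Or.inl ⟨⟨h2, huw⟩, hw.1⟩
      · refine Or.inr ⟨⟨h2, huw⟩, fun hu'w => ?_⟩
        exact hK u u' y w (Or.inl hu'.2) (Or.inl hyW.2) (Or.inl huw) (Or.inl hyC.2)
          (Or.inl hu'w) (Or.inl hw.1)
  have h2 : (N1 r y).card ≤ (N2 r u).card +
      (((P u).filter (fun p => r y p)).card + ((W u).filter (fun w => ¬ r u' w)).card) := by
    have h3 := card_le_card h1
    have h4 := card_union_le ((P u).filter (fun p => r y p)) ((W u).filter (fun w => ¬ r u' w))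
    have h5 := le_card_sdiff ((P u).filter (fun p => r y p) ∪ (W u).filter (fun w => ¬ r u' w))
      (N1 r y)
    omega
  have h3 : ((N1 r y).card : ℝ) ≤ (N2 r u).card +
      (z + (((W u).filter (fun w => ¬ r u' w)).card : ℝ)) := by
    rw [hz]
    exact_mod_cast h2
  have h4 := hmin' y
  have h5 := hcon u
  have h6 : ((N1 r u).card : ℝ) ≤ a u + 79 / 100 * d := by
    rw [hN1 u hu]
    have h7 : ((W u).card : ℝ) ≤ Y.card := by exact_mod_cast card_le_card (filter_subset _ _)
    simp only [ha]
    linarith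
  have hkey : 21 / 100 * d < z + s u' + 79 / 100 * s u := by
    have e : a u = s u + 21 / 100 * d := by simp only [hs]; ring
    rw [e] at h6
    linarith
  have hzd : z * (56 / 100 * d) ≤ S u :=
    (mul_le_mul_of_nonneg_left hC56 hz0).trans hychoice
  have hfin : 21 / 100 * d * d < (z + s u' + 79 / 100 * s u) * d :=
    mul_lt_mul_of_pos_right hkey hd0
  have h8 : 0 ≤ d * s u := mul_nonneg hd0.le hsu
  nlinarith

end

end Vale.Agent.P038
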