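import Vale.Agent.Lib.P038.K4

/-! P038: oriented graphs without `K_4`, ratio 17/20. -/

namespace Vale.Agent.P038

open Finset

section

variable {V : Type} [Fintype V] [DecidableEq V] (r : V → V → Prop) [DecidableRel r]

omit [Fintype V] in
theorem degsq (hor : ∀ a b, r a b → ¬ r b a) (X : Finset V)
    (htri : ∀ a ∈ X, ∀ b ∈ X, ∀ c ∈ X, Adj r a b → Adj r a c → Adj r b c → False) :
    ∑ x ∈ X, (∑ q ∈ X, (io r x q + io r q x)) ^ 2 ≤
      (X.card : ℝ) * ∑ u ∈ X, ∑ q ∈ X, io r u q := by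
  set D : V → ℝ := fun x => ∑ q ∈ X, (io r x q + io r q x) with hD
  have hDe : ∀ x, D x = ((X.filter (fun q => r x q ∨ r q x)).card : ℝ) := fun x =>
    deg_eq r hor X x
  have h1 : ∀ u ∈ X, ∀ q ∈ X, io r u q * D u + io r u q * D q ≤ io r u q * (X.card : ℝ) := by
    intro u hu q hq
    by_cases h : r u q
    · have h2 : Disjoint (X.filter (fun w => r u w ∨ r w u)) (X.filter (fun w => r q w ∨ r w q)) := by
        rw [disjoint_left]
        intro w h3 h4
        rw [mem_filter] at h3 h4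
        exact htri u hu q hq w h3.1 (Or.inl h) h3.2 h4.2
      have h3 := card_le_card (union_subset (filter_subset (fun w => r u w ∨ r w u) X)
        (filter_subset (fun w => r q w ∨ r w q) X))
      rw [card_union_of_disjoint h2] at h3
      have h4 : D u + D q ≤ (X.card : ℝ) := by
        rw [hDe, hDe]
        exact_mod_cast h3
      have h5 : io r u q = 1 := by simp [io, h]
      rw [h5]
      linarith
    · have h5 : io r u q = 0 := by simp [io, h]
      rw [h5]
      simp
  have h2 : ∑ x ∈ X, D x ^ 2 = ∑ u ∈ X, ∑ q ∈ X, (io r u q * D u + io r u q * D q) := by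
    have e1 : ∑ u ∈ X, ∑ q ∈ X, (io r u q * D u + io r u q * D q) =
        ∑ u ∈ X, ∑ q ∈ X, io r u q * D u + ∑ u ∈ X, ∑ q ∈ X, io r u q * D q := by
      rw [← sum_add_distrib]
      exact sum_congr rfl fun u _ => sum_add_distrib
    rw [e1, sum_comm (f := fun u q => io r u q * D q), ← sum_add_distrib]
    refine sum_congr rfl fun x _ => ?_
    have e2 : D x = ∑ q ∈ X, (io r x q + io r q x) := rfl
    calc D x ^ 2 = (∑ q ∈ X, (io r x q + io r q x)) * D x := by rw [← e2]; ring
      _ = _ := by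
        rw [sum_mul, ← sum_add_distrib]
        exact sum_congr rfl fun q _ => by ring
  rw [h2, mul_sum]
  refine sum_le_sum fun u hu => ?_
  rw [mul_sum]
  refine sum_le_sum fun q hq => ?_
  have := h1 u hu q hq
  linarith

/-- the elementary inequality at the end -/
theorem arith (a w m : ℝ) (ha : 3 / 20 ≤ a) (hm : 0 ≤ m)
    (hma : m * a ≤ 1 / 10 - 3 / 10 * a) (hw1 : 1 - a ≤ w) (hw2 : w ≤ 17 / 20) :
    1 / 10 < (w - m) * (23 / 20 - 17 / 20 * (a + w)) ∧ 0 ≤ w - m ∧
      0 ≤ 23 / 20 - 17 / 20 * (a + w) := by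
  have ha0 : 0 < a := by linarith
  have ha3 : a ≤ 1 / 3 := by nlinarith [mul_nonneg hm ha0.le]
  have hq : 0 ≤ (a - 3 / 20) * (1 / 3 - a) := mul_nonneg (by linarith) (by linarith)
  have h1 : a + m < 2 / 3 := by
    by_contra hc
    push Not at hc
    have : (2 / 3 - a) * a ≤ m * a := mul_le_mul_of_nonneg_right (by linarith) ha0.le
    nlinarith
  have h2 : 1 / 10 < (17 / 20 - m) * (171 / 400 - 17 / 20 * a) := by
    by_contra hc
    push Not at hc
    have h3 : ((17 / 20 - m) * (171 / 400 - 17 / 20 * a)) * a ≤ 1 / 10 * a :=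
      mul_le_mul_of_nonneg_right hc ha0.le
    have h4 : 0 ≤ (1 / 10 - 3 / 10 * a - m * a) * (171 / 400 - 17 / 20 * a) :=
      mul_nonneg (by linarith) (by linarith)
    nlinarith
  have h3 : 0 ≤ (w - (1 - a)) * (17 / 20 - w) := mul_nonneg (by linarith) (by linarith)
  refine ⟨?_, by linarith, by linarith⟩
  -- linear part
  have hlin : 1 / 10 < (w - m) * (23 / 20 - 17 / 20 * (a + w)) -
      17 / 20 * ((w - (1 - a)) * (17 / 20 - w)) := by
    rcases le_total 0 (23 / 20 - 17 / 20 * a + 17 / 20 * m - 17 / 20 * (1 - a) - 17 / 20 * (17 / 20))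
      with h4 | h4
    · have h5 : 0 ≤ (23 / 20 - 17 / 20 * a + 17 / 20 * m - 17 / 20 * (1 - a) -
          17 / 20 * (17 / 20)) * (w - (1 - a)) := mul_nonneg h4 (by linarith)
      nlinarith
    · have h5 : 0 ≤ -(23 / 20 - 17 / 20 * a + 17 / 20 * m - 17 / 20 * (1 - a) -
          17 / 20 * (17 / 20)) * (17 / 20 - w) := mul_nonneg (by linarith) (by linarith)
      nlinarith
  linarith

end

end Vale.Agent.P038
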