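import Vale.Agent.Lib.P038.K4b

/-! P038: oriented graphs without `K_4`, ratio 17/20: main argument. -/

namespace Vale.Agent.P038

open Finset

section

variable {V : Type} [Fintype V] [DecidableEq V] (r : V → V → Prop) [DecidableRel r]

theorem main2 [Nonempty V] (hor : ∀ a b, r a b → ¬ r b a)
    (hK : ∀ a b c d, Adj r a b → Adj r a c → Adj r a d → Adj r b c → Adj r b d → Adj r c d →
      False) :
    ∃ v, (17 / 20 : ℝ) * (N1 r v).card ≤ (N2 r v).card := by
  by_contra hcon
  push Not at hcon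
  obtain ⟨v, -, hmin⟩ := exists_min_image (univ : Finset V) (fun x => (N1 r x).card)
    univ_nonempty
  set X := N1 r v with hX
  set Y := N2 r v with hY
  set d : ℝ := (X.card : ℝ) with hd
  have hYd : (Y.card : ℝ) < 17 / 20 * d := hcon v
  have hd0 : 0 < d := by
    have : (0:ℝ) ≤ Y.card := Nat.cast_nonneg _
    linarith
  have hmin' : ∀ x, d ≤ ((N1 r x).card : ℝ) := fun x =>
    Nat.cast_le.2 (hmin x (mem_univ x))
  have hmX : ∀ u, u ∈ X ↔ r v u := fun u => mem_N1 r v u
  have hmY : ∀ w, w ∈ Y ↔ w ≠ v ∧ ¬ r v w ∧ ∃ u, r v u ∧ r u w := fun w => mem_N2 r v w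
  have hsub : ∀ u ∈ X, ∀ w, r u w → w ∈ X ∨ w ∈ Y := by
    intro u hu w hw
    by_cases h : r v w
    · exact Or.inl ((hmX w).2 h)
    · refine Or.inr ((hmY w).2 ⟨?_, h, u, (hmX u).1 hu, hw⟩)
      rintro rfl
      exact hor _ _ ((hmX u).1 hu) hw
  set P : V → Finset V := fun u => X.filter (fun p => r u p) with hP
  set W : V → Finset V := fun u => Y.filter (fun p => r u p) with hW
  have hN1 : ∀ u ∈ X, ((N1 r u).card : ℝ) = (P u).card + (W u).card := by
    intro u hu
    have h1 : N1 r u = P u ∪ W u := by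
      ext w
      rw [mem_N1, mem_union, mem_filter, mem_filter]
      constructor
      · intro h
        rcases hsub u hu w h with h2 | h2
        · exact Or.inl ⟨h2, h⟩
        · exact Or.inr ⟨h2, h⟩
      · rintro (h | h) <;> exact h.2
    have h2 : Disjoint (P u) (W u) := by
      rw [disjoint_left]
      intro w h3 h4
      rw [mem_filter] at h3 h4
      exact ((hmY w).1 h4.1).2.1 ((hmX w).1 h3.1)
    rw [h1, card_union_of_disjoint h2]
    push_cast
    rfl
  set a : V → ℝ := fun u => ((P u).card : ℝ) with ha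
  set s : V → ℝ := fun u => a u - 3 / 20 * d with hs
  have hWle : ∀ u ∈ X, d - a u ≤ (W u).card := by
    intro u hu
    have h1 := hmin' u
    rw [hN1 u hu] at h1
    simp only [ha]
    linarith
  have hmiss : ∀ u ∈ X, ((Y.filter (fun y => ¬ r u y)).card : ℝ) ≤ s u := by
    intro u hu
    have h1 : (Y.filter (fun y => r u y)).card + (Y.filter (fun y => ¬ r u y)).card = Y.card :=
      card_filter_add_card_filter_not _
    have h2 : ((W u).card : ℝ) + ((Y.filter (fun y => ¬ r u y)).card : ℝ) = Y.card := by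
      exact_mod_cast h1
    have h3 := hWle u hu
    simp only [hs]
    linarith
  have hs0 : ∀ u ∈ X, 0 ≤ s u := fun u hu => (Nat.cast_nonneg _).trans (hmiss u hu)
  have htri : ∀ p ∈ X, ∀ q ∈ X, ∀ w ∈ X, Adj r p q → Adj r p w → Adj r q w → False := by
    intro p hp q hq w hw h1 h2 h3
    exact hK v p q w (Or.inl ((hmX p).1 hp)) (Or.inl ((hmX q).1 hq)) (Or.inl ((hmX w).1 hw))
      h1 h2 h3
  have hman := mantel r hor X htri
  have hdeg := degsq r hor X htri
  have haeq : ∀ u, ∑ q ∈ X, io r u q = a u := fun u => sum_io_one r X u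
  have hsum_a : ∑ u ∈ X, a u ≤ d ^ 2 / 4 := by
    rw [sum_congr rfl fun u _ => haeq u] at hman
    linarith
  have hsum_s : ∑ u ∈ X, s u ≤ 1 / 10 * d ^ 2 := by
    simp only [hs]
    rw [sum_sub_distrib, sum_const, nsmul_eq_mul]
    nlinarith
  -- indegrees inside X
  set b : V → ℝ := fun p => ∑ q ∈ X, io r q p with hb
  have hsum_b : ∑ p ∈ X, b p = ∑ p ∈ X, a p := by
    simp only [hb]
    rw [sum_comm]
    exact sum_congr rfl fun u _ => haeq u
  have hdeg2 : ∑ x ∈ X, (a x + b x) ^ 2 ≤ d * ∑ p ∈ X, a p := by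
    have e1 : ∑ x ∈ X, (∑ q ∈ X, (io r x q + io r q x)) ^ 2 = ∑ x ∈ X, (a x + b x) ^ 2 := by
      refine sum_congr rfl fun x _ => ?_
      rw [sum_add_distrib, haeq]
    rw [e1, sum_congr rfl fun u _ => haeq u] at hdeg
    exact hdeg
  have hsb : ∑ p ∈ X, b p * s p ≤ 1 / 40 * d ^ 3 := by
    have h1 : ∑ p ∈ X, b p * s p ≤ ∑ p ∈ X, ((1 / 4) * (a p + b p) ^ 2 - 3 / 20 * d * b p) := by
      refine sum_le_sum fun p hp => ?_
      have e : s p = a p - 3 / 20 * d := rfl
      rw [e]
      nlinarith [sq_nonneg (a p - b p)]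
    rw [sum_sub_distrib, ← mul_sum, ← mul_sum, hsum_b] at h1
    have h2 : d * ∑ p ∈ X, a p ≤ d * (d ^ 2 / 4) := mul_le_mul_of_nonneg_left hsum_a hd0.le
    nlinarith
  -- choice of u
  set S : V → ℝ := fun u => ∑ p ∈ X, io r u p * s p with hS
  have hsum_S : ∑ u ∈ X, S u ≤ 1 / 40 * d ^ 3 := by
    refine le_trans (le_of_eq ?_) hsb
    simp only [hS]
    rw [sum_comm]
    exact sum_congr rfl fun p _ => by rw [← sum_mul]
  have hXne : X.Nonempty := by
    rw [← card_pos]
    have : (0:ℝ) < X.card := hd0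
    exact_mod_cast this
  obtain ⟨u, hu, hchoice⟩ : ∃ u ∈ X, S u + 3 / 10 * d * s u ≤ 11 / 200 * d ^ 2 := by
    apply exists_le_of_sum_le hXne
    rw [sum_add_distrib, ← mul_sum, sum_const, nsmul_eq_mul]
    have h1 : 3 / 10 * d * ∑ u ∈ X, s u ≤ 3 / 10 * d * (1 / 10 * d ^ 2) :=
      mul_le_mul_of_nonneg_left hsum_s (by linarith)
    have h2 : (X.card : ℝ) * (11 / 200 * d ^ 2) =
        1 / 40 * d ^ 3 + 3 / 10 * d * (1 / 10 * d ^ 2) := by
      rw [← hd]; ring
    linarith
  have hsu := hs0 u hu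
  have esu : a u = s u + 3 / 20 * d := by simp only [hs]; ring
  have hSu : S u = ∑ p ∈ P u, s p := sum_io r X u s
  have hPne : (P u).Nonempty := by
    rw [← card_pos]
    have : (0:ℝ) < (P u).card := by
      have : 0 < a u := by linarith
      exact this
    exact_mod_cast this
  obtain ⟨u', hu', hchoice'⟩ : ∃ p ∈ P u, s p * a u ≤ S u := by
    apply exists_le_of_sum_le hPne
    rw [← sum_mul, ← hSu, sum_const, nsmul_eq_mul]
    exact le_of_eq (by simp only [ha]; ring)
  rw [mem_filter] at hu'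
  have hs'0 := hs0 u' hu'.1
  -- common out-neighbours in Y
  set C : Finset V := (W u).filter (fun y => r u' y) with hC
  have hWC : (((W u).filter (fun y => ¬ r u' y)).card : ℝ) ≤ s u' := by
    refine le_trans ?_ (hmiss u' hu'.1)
    exact_mod_cast card_le_card (filter_subset_filter _ (filter_subset _ _))
  set w : ℝ := ((W u).card : ℝ) with hw
  have hCc : w - s u' ≤ (C.card : ℝ) := by
    have h1 : (C.card : ℝ) + (((W u).filter (fun y => ¬ r u' y)).card : ℝ) = (W u).card := by
      exact_mod_cast card_filter_add_card_filter_not (s := W u) (fun y => r u' y)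
    linarith
  -- arcs from Y to X
  set x : V → ℝ := fun y => ((X.filter (fun p => r y p)).card : ℝ) with hx
  have hxy : ∀ y ∈ C, 23 / 20 * d - 17 / 20 * (a u + w) ≤ x y := by
    intro y hy
    rw [hC, mem_filter] at hy
    have hyW := hy.1
    rw [mem_filter] at hyW
    have h1 : P u' ∪ (N1 r y \ (X.filter (fun p => r y p) ∪ (W u).filter (fun w => ¬ r u' w))) ⊆
        N2 r u := by
      intro q hq
      rw [mem_union] at hq
      rw [mem_N2]
      rcases hq with hq | hq
      · rw [mem_filter] at hq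
        refine ⟨?_, ?_, u', hu'.2, hq.2⟩
        · rintro rfl
          exact hor _ _ hu'.2 hq.2
        · intro huq
          exact htri u hu u' hu'.1 q hq.1 (Or.inl hu'.2) (Or.inl huq) (Or.inl hq.2)
      · rw [mem_sdiff, mem_N1, mem_union, mem_filter, mem_filter, mem_filter] at hq
        refine ⟨?_, ?_, y, hyW.2, hq.1⟩
        · rintro rfl
          exact hor _ _ hyW.2 hq.1
        · intro huw
          apply hq.2
          rcases hsub u hu q huw with h2 | h2
          · exact Or.inl ⟨h2, hq.1⟩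
          · refine Or.inr ⟨⟨h2, huw⟩, fun hu'w => ?_⟩
            exact hK u u' y q (Or.inl hu'.2) (Or.inl hyW.2) (Or.inl huw) (Or.inl hy.2)
              (Or.inl hu'w) (Or.inl hq.1)
    have hdis : Disjoint (P u')
        (N1 r y \ (X.filter (fun p => r y p) ∪ (W u).filter (fun w => ¬ r u' w))) := by
      rw [disjoint_left]
      intro q h3 h4
      rw [mem_filter] at h3
      rw [mem_sdiff, mem_N1, mem_union, mem_filter] at h4
      exact h4.2 (Or.inl ⟨h3.1, h4.1⟩)
    have h2 := card_le_card h1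
    rw [card_union_of_disjoint hdis] at h2
    have h4 := card_union_le (X.filter (fun p => r y p)) ((W u).filter (fun w => ¬ r u' w))
    have h5 := le_card_sdiff (X.filter (fun p => r y p) ∪ (W u).filter (fun w => ¬ r u' w))
      (N1 r y)
    have h6 : (P u').card + (N1 r y).card ≤ (N2 r u).card +
        ((X.filter (fun p => r y p)).card + ((W u).filter (fun w => ¬ r u' w)).card) := by
      omega
    have h7 : a u' + ((N1 r y).card : ℝ) ≤ (N2 r u).card +
        (x y + (((W u).filter (fun w => ¬ r u' w)).card : ℝ)) := by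
      simp only [ha, hx]
      exact_mod_cast h6
    have h8 := hmin' y
    have h9 := hcon u
    rw [hN1 u hu] at h9
    have h10 : 17 / 20 * (a u + w) = 17 / 20 * (((P u).card : ℝ) + ((W u).card : ℝ)) := rfl
    have e : a u' = s u' + 3 / 20 * d := by simp only [hs]; ring
    rw [h10]
    linarith
  have hsumx : ∑ y ∈ Y, x y ≤ 1 / 10 * d ^ 2 := by
    refine le_trans ?_ hsum_s
    have h1 : ∀ y, x y = ∑ p ∈ X, io r y p := fun y => (sum_io_one r X y).symm
    rw [sum_congr rfl fun y _ => h1 y, sum_comm]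
    refine sum_le_sum fun p hp => ?_
    refine le_trans ?_ (hmiss p hp)
    have h2 : ∑ y ∈ Y, io r y p = ((Y.filter (fun y => r y p)).card : ℝ) := by
      rw [card_filter]
      push_cast
      rfl
    rw [h2]
    have h3 : Y.filter (fun y => r y p) ⊆ Y.filter (fun y => ¬ r p y) := by
      intro y hy
      rw [mem_filter] at hy ⊢
      exact ⟨hy.1, hor _ _ hy.2⟩
    exact_mod_cast card_le_card h3
  have hCY : C ⊆ Y := (filter_subset _ _).trans (filter_subset _ _)
  have hx0 : ∀ y, 0 ≤ x y := fun y => Nat.cast_nonneg _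
  have hCsum : (C.card : ℝ) * (23 / 20 * d - 17 / 20 * (a u + w)) ≤ 1 / 10 * d ^ 2 := by
    have h1 : (C.card : ℝ) * (23 / 20 * d - 17 / 20 * (a u + w)) =
        ∑ _y ∈ C, (23 / 20 * d - 17 / 20 * (a u + w)) := by
      rw [sum_const, nsmul_eq_mul]
    rw [h1]
    exact ((sum_le_sum hxy).trans (sum_le_sum_of_subset_of_nonneg hCY fun y _ _ => hx0 y)).trans
      hsumx
  -- scaling
  have hwY : w ≤ 17 / 20 * d := by
    have h7 : ((W u).card : ℝ) ≤ Y.card := by exact_mod_cast card_le_card (filter_subset _ _)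
    linarith
  have hwl : d - a u ≤ w := hWle u hu
  have hne : d ≠ 0 := hd0.ne'
  obtain ⟨k1, k2, k3⟩ := arith (a u / d) (w / d) (s u' / d)
    (by rw [le_div_iff₀ hd0]; linarith) (div_nonneg hs'0 hd0.le)
    (by
      rw [div_mul_div_comm, div_le_iff₀ (mul_pos hd0 hd0)]
      have e : (1 / 10 - 3 / 10 * (a u / d)) * (d * d) = 1 / 10 * d ^ 2 - 3 / 10 * a u * d := by
        field_simp
      rw [e]
      nlinarith)
    (by rw [le_div_iff₀ hd0, sub_mul, div_mul_cancel₀ _ hne]; linarith)
    (by rw [div_le_iff₀ hd0]; linarith)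
  have e2 : (w / d - s u' / d) * (23 / 20 - 17 / 20 * (a u / d + w / d)) * d ^ 2 =
      (w - s u') * (23 / 20 * d - 17 / 20 * (a u + w)) := by
    field_simp
  have e3 : (23 / 20 - 17 / 20 * (a u / d + w / d)) * d = 23 / 20 * d - 17 / 20 * (a u + w) := by
    field_simp
  have k4 : 1 / 10 * d ^ 2 < (w - s u') * (23 / 20 * d - 17 / 20 * (a u + w)) := by
    rw [← e2]
    exact mul_lt_mul_of_pos_right k1 (pow_pos hd0 2)
  have k5 : 0 ≤ 23 / 20 * d - 17 / 20 * (a u + w) := by
    rw [← e3]
    exact mul_nonneg k3 hd0.le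
  have k6 := mul_le_mul_of_nonneg_right hCc k5
  linarith

end

end Vale.Agent.P038
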