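import Vale.Agent.Lib.P038.K4

/-! P038: oriented graphs without `K_4`, minimum outdegree at most 8. -/

namespace Vale.Agent.P038

open Finset

section

variable {V : Type} [Fintype V] [DecidableEq V] (r : V → V → Prop) [DecidableRel r]

omit [Fintype V] in
theorem mantel2 (hor : ∀ a b, r a b → ¬ r b a) (X : Finset V) (hne : X.Nonempty)
    (htri : ∀ a ∈ X, ∀ b ∈ X, ∀ c ∈ X, Adj r a b → Adj r a c → Adj r b c → False) :
    ∃ D : ℕ, D ≤ X.card ∧ (∀ x ∈ X, (X.filter (fun q => r x q ∨ r q x)).card ≤ D) ∧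
      ∑ u ∈ X, ∑ q ∈ X, io r u q ≤ ((X.card : ℝ) - D) * D := by
  obtain ⟨p, hp, hmax⟩ := exists_max_image X
    (fun x => (X.filter (fun q => r x q ∨ r q x)).card) hne
  set N : Finset V := X.filter (fun q => r p q ∨ r q p) with hN
  refine ⟨N.card, card_le_card (filter_subset _ _), hmax, ?_⟩
  set g : V → ℝ := fun x => if x ∈ N then 0 else 1 with hg
  have hg0 : ∀ x, 0 ≤ g x := by intro x; simp only [hg]; split_ifs <;> norm_num
  have h1 : ∀ u ∈ X, ∀ q ∈ X, io r u q ≤ io r u q * g u + io r u q * g q := by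
    intro u hu q hq
    by_cases h : r u q
    · have h2 : ¬ (u ∈ N ∧ q ∈ N) := by
        rintro ⟨h3, h4⟩
        rw [hN, mem_filter] at h3 h4
        exact htri p hp u hu q hq h3.2 h4.2 (Or.inl h)
      simp only [io, h, if_true, hg, one_mul]
      by_cases h3 : u ∈ N
      · have h4 : q ∉ N := fun h4 => h2 ⟨h3, h4⟩
        simp [h3, h4]
      · simp only [h3, if_false]
        split_ifs <;> norm_num
    · simp [io, h]
  have h2 : ∑ u ∈ X, ∑ q ∈ X, io r u q ≤ ∑ x ∈ X, g x * ∑ q ∈ X, (io r x q + io r q x) := by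
    calc ∑ u ∈ X, ∑ q ∈ X, io r u q ≤ ∑ u ∈ X, ∑ q ∈ X, (io r u q * g u + io r u q * g q) :=
          sum_le_sum fun u hu => sum_le_sum fun q hq => h1 u hu q hq
      _ = ∑ u ∈ X, ∑ q ∈ X, io r u q * g u + ∑ u ∈ X, ∑ q ∈ X, io r u q * g q := by
          rw [← sum_add_distrib]
          exact sum_congr rfl fun u _ => sum_add_distrib
      _ = ∑ u ∈ X, ∑ q ∈ X, io r u q * g u + ∑ q ∈ X, ∑ u ∈ X, io r u q * g q := by
          rw [sum_comm (f := fun u q => io r u q * g q)]
      _ = _ := by
          rw [← sum_add_distrib]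
          refine sum_congr rfl fun x _ => ?_
          rw [mul_sum, ← sum_add_distrib]
          exact sum_congr rfl fun q _ => by ring
  have h3 : ∑ x ∈ X, g x * ∑ q ∈ X, (io r x q + io r q x) ≤ ∑ x ∈ X, g x * N.card := by
    refine sum_le_sum fun x hx => mul_le_mul_of_nonneg_left ?_ (hg0 x)
    rw [deg_eq r hor]
    exact_mod_cast hmax x hx
  have h4 : ∑ x ∈ X, g x = (X.card : ℝ) - N.card := by
    have h5 : ∑ x ∈ X, g x = ((X.filter (fun x => x ∉ N)).card : ℝ) := by
      rw [card_filter]
      push_cast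
      refine sum_congr rfl fun x _ => ?_
      simp only [hg]
      by_cases h : x ∈ N <;> simp [h]
    have h6 : X.filter (fun x => x ∉ N) = X \ N := by
      ext x; simp [mem_sdiff]
    rw [h5, h6, card_sdiff_of_subset (filter_subset _ _), Nat.cast_sub
      (card_le_card (filter_subset _ _))]
  rw [← sum_mul, h4] at h3
  linarith

theorem num (d D a e : ℕ) (hd : d ≤ 8) (hD : D ≤ d) (ha : a + 1 ≤ D)
    (he : e + D * D ≤ d * D) (h : 3 * d ≤ e + 2 * a) : False := by
  interval_cases d <;> interval_cases D <;> omega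

theorem main3 (hor : ∀ a b, r a b → ¬ r b a)
    (hK : ∀ a b c d, Adj r a b → Adj r a c → Adj r a d → Adj r b c → Adj r b d → Adj r c d →
      False) (hδ : ∃ v, (N1 r v).card ≤ 8) :
    ∃ v, (N1 r v).card ≤ (N2 r v).card := by
  by_contra hcon
  push Not at hcon
  obtain ⟨v0, hv0⟩ := hδ
  obtain ⟨v, -, hmin⟩ := exists_min_image (univ : Finset V) (fun x => (N1 r x).card)
    ⟨v0, mem_univ v0⟩
  have hd8 : (N1 r v).card ≤ 8 := (hmin v0 (mem_univ _)).trans hv0
  have hYd := hcon v
  have hmin' : ∀ x, (N1 r v).card ≤ (N1 r x).card := fun x => hmin x (mem_univ x)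
  have hmX : ∀ u, u ∈ N1 r v ↔ r v u := fun u => mem_N1 r v u
  have hmY : ∀ w, w ∈ N2 r v ↔ w ≠ v ∧ ¬ r v w ∧ ∃ u, r v u ∧ r u w := fun w => mem_N2 r v w
  generalize N1 r v = X at *
  generalize N2 r v = Y at *
  have hsub : ∀ u ∈ X, ∀ w, r u w → w ∈ X ∨ w ∈ Y := by
    intro u hu w hw
    by_cases h : r v w
    · exact Or.inl ((hmX w).2 h)
    · refine Or.inr ((hmY w).2 ⟨?_, h, u, (hmX u).1 hu, hw⟩)
      rintro rfl
      exact hor _ _ ((hmX u).1 hu) hw
  obtain ⟨P, hP⟩ : ∃ P : V → Finset V, P = fun u => X.filter (fun p => r u p) := ⟨_, rfl⟩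
  obtain ⟨W, hW⟩ : ∃ W : V → Finset V, W = fun u => Y.filter (fun p => r u p) := ⟨_, rfl⟩
  have mP : ∀ u q, q ∈ P u ↔ q ∈ X ∧ r u q := by intro u q; rw [hP, mem_filter]
  have mW : ∀ u q, q ∈ W u ↔ q ∈ Y ∧ r u q := by intro u q; rw [hW, mem_filter]
  have hN1 : ∀ u ∈ X, (N1 r u).card = (P u).card + (W u).card := by
    intro u hu
    have h1 : N1 r u = P u ∪ W u := by
      ext w
      rw [mem_N1, mem_union, mP, mW]
      constructor
      · intro h
        rcases hsub u hu w h with h2 | h2
        · exact Or.inl ⟨h2, h⟩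
        · exact Or.inr ⟨h2, h⟩
      · rintro (h | h) <;> exact h.2
    have h2 : Disjoint (P u) (W u) := by
      rw [disjoint_left]
      intro w h3 h4
      rw [mP] at h3
      rw [mW] at h4
      exact ((hmY w).1 h4.1).2.1 ((hmX w).1 h3.1)
    rw [h1, card_union_of_disjoint h2]
  have hge : ∀ u ∈ X, X.card ≤ (P u).card + (W u).card := by
    intro u hu
    rw [← hN1 u hu]
    exact hmin' u
  have hWY : ∀ u, W u ⊆ Y := by intro u; rw [hW]; exact filter_subset _ _
  have hWYc : ∀ u, (W u).card ≤ Y.card := fun u => card_le_card (hWY u)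
  have hm : ∀ u, (W u).card + (Y.filter (fun y => ¬ r u y)).card = Y.card := by
    intro u
    rw [hW]
    exact card_filter_add_card_filter_not _
  have htri : ∀ p ∈ X, ∀ q ∈ X, ∀ w ∈ X, Adj r p q → Adj r p w → Adj r q w → False := by
    intro p hp q hq w hw h1 h2 h3
    exact hK v p q w (Or.inl ((hmX p).1 hp)) (Or.inl ((hmX q).1 hq)) (Or.inl ((hmX w).1 hw))
      h1 h2 h3
  have hXne : X.Nonempty := by rw [← card_pos]; omega
  have haeq : ∀ u, ∑ q ∈ X, io r u q = ((P u).card : ℝ) := by
    intro u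
    rw [hP]
    exact sum_io_one r X u
  have hman : 4 * ∑ u ∈ X, (P u).card ≤ X.card ^ 2 := by
    have h := mantel r hor X htri
    rw [sum_congr rfl fun u _ => haeq u] at h
    exact_mod_cast h
  obtain ⟨D, hDX, hDm, hDe⟩ := mantel2 r hor X hXne htri
  have hDe' : ∑ u ∈ X, (P u).card + D * D ≤ X.card * D := by
    rw [sum_congr rfl fun u _ => haeq u] at hDe
    have h : ((∑ u ∈ X, (P u).card + D * D : ℕ) : ℝ) ≤ ((X.card * D : ℕ) : ℝ) := by
      push_cast
      linarith
    exact_mod_cast h
  -- the key inequality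
  obtain ⟨x, hx⟩ : ∃ x : V → ℕ, x = fun y => (X.filter (fun p => r y p)).card := ⟨_, rfl⟩
  have hkey : ∀ u ∈ X, ∀ u' ∈ X, r u u' → ∀ y ∈ Y, r u y → r u' y →
      (P u').card + X.card + 1 ≤ (P u).card + (W u).card + x y +
        ((W u).filter (fun w => ¬ r u' w)).card := by
    intro u hu u' hu' huu y hyY huy huy'
    have h1 : P u' ∪ (N1 r y \ (X.filter (fun p => r y p) ∪ (W u).filter (fun w => ¬ r u' w))) ⊆
        N2 r u := by
      intro q hq
      rw [mem_union] at hq
      rw [mem_N2]
      rcases hq with hq | hq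
      · rw [mP] at hq
        refine ⟨?_, ?_, u', huu, hq.2⟩
        · rintro rfl
          exact hor _ _ huu hq.2
        · intro huq
          exact htri u hu u' hu' q hq.1 (Or.inl huu) (Or.inl huq) (Or.inl hq.2)
      · rw [mem_sdiff, mem_N1, mem_union, mem_filter, mem_filter, mW] at hq
        refine ⟨?_, ?_, y, huy, hq.1⟩
        · rintro rfl
          exact hor _ _ huy hq.1
        · intro huw
          apply hq.2
          rcases hsub u hu q huw with h2 | h2
          · exact Or.inl ⟨h2, hq.1⟩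
          · refine Or.inr ⟨⟨h2, huw⟩, fun hu'w => ?_⟩
            exact hK u u' y q (Or.inl huu) (Or.inl huy) (Or.inl huw) (Or.inl huy')
              (Or.inl hu'w) (Or.inl hq.1)
    have hdis : Disjoint (P u')
        (N1 r y \ (X.filter (fun p => r y p) ∪ (W u).filter (fun w => ¬ r u' w))) := by
      rw [disjoint_left]
      intro q h3 h4
      rw [mP] at h3
      rw [mem_sdiff, mem_N1, mem_union, mem_filter] at h4
      exact h4.2 (Or.inl ⟨h3.1, h4.1⟩)
    have h2 := card_le_card h1
    rw [card_union_of_disjoint hdis] at h2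
    have h4 := card_union_le (X.filter (fun p => r y p)) ((W u).filter (fun w => ¬ r u' w))
    have h5 := le_card_sdiff (X.filter (fun p => r y p) ∪ (W u).filter (fun w => ¬ r u' w))
      (N1 r y)
    have h8 := hmin' y
    have h9 := hcon u
    rw [hN1 u hu] at h9
    have h10 : x y = (X.filter (fun p => r y p)).card := by rw [hx]
    omega
  have hmle : ∀ u u', ((W u).filter (fun w => ¬ r u' w)).card ≤
      (Y.filter (fun y => ¬ r u' y)).card := fun u u' =>
    card_le_card (filter_subset_filter _ (hWY u))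
  have hsumx : ∑ y ∈ Y, x y ≤ ∑ p ∈ X, (Y.filter (fun y => ¬ r p y)).card := by
    have h1 : ∑ y ∈ Y, x y = ∑ p ∈ X, (Y.filter (fun y => r y p)).card := by
      rw [hx]
      exact sum_card_bipartiteAbove_eq_sum_card_bipartiteBelow r
    rw [h1]
    refine sum_le_sum fun p hp => card_le_card ?_
    intro y hy
    rw [mem_filter] at hy ⊢
    exact ⟨hy.1, hor _ _ hy.2⟩
  have hsumm : ∑ p ∈ X, (Y.filter (fun y => ¬ r p y)).card + X.card ≤ ∑ p ∈ X, (P p).card := by
    have h1 : ∑ p ∈ X, (Y.filter (fun y => ¬ r p y)).card + X.card =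
        ∑ p ∈ X, ((Y.filter (fun y => ¬ r p y)).card + 1) := by
      rw [sum_add_distrib, sum_const, smul_eq_mul, mul_one]
    rw [h1]
    refine sum_le_sum fun p hp => ?_
    have h2 := hge p hp
    have h3 := hm p
    omega
  have hsumC : ∀ C : Finset V, C ⊆ Y → ∀ k, (∀ y ∈ C, k ≤ x y) → C.card * k ≤ ∑ y ∈ Y, x y := by
    intro C hC k hk
    refine le_trans ?_ (sum_le_sum_of_subset hC)
    rw [← smul_eq_mul]
    exact card_nsmul_le_sum C x k hk
  have hPpos : ∀ u ∈ X, 1 ≤ (P u).card := by
    intro u hu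
    have h1 := hge u hu
    have h2 := hWYc u
    omega
  by_cases hA : ∃ u ∈ X, (P u).card = 1
  · obtain ⟨u, hu, hu1⟩ := hA
    have hPne : (P u).Nonempty := by rw [← card_pos]; omega
    obtain ⟨u', hu'⟩ := hPne
    rw [mP] at hu'
    have hWeq : W u = Y := by
      apply eq_of_subset_of_card_le (hWY u)
      have h1 := hge u hu
      omega
    have h1 : ∀ y ∈ W u', 2 ≤ x y := by
      intro y hy
      rw [mW] at hy
      have h2 : y ∈ W u := by rw [hWeq]; exact hy.1
      rw [mW] at h2
      have h3 := hkey u hu u' hu'.1 hu'.2 y hy.1 h2.2 hy.2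
      have h4 := hmle u u'
      have h5 := hm u'
      have h6 := hge u' hu'.1
      have h7 := hWYc u
      omega
    have h2 := hsumC (W u') (hWY u') 2 h1
    have h6 := hge u' hu'.1
    have h7 : (P u').card + 1 ≤ D := by
      refine le_trans ?_ (hDm u' hu'.1)
      have h8 : u ∉ P u' := by
        rw [mP]
        rintro ⟨-, h9⟩
        exact hor _ _ hu'.2 h9
      rw [← card_insert_of_notMem h8]
      apply card_le_card
      intro q hq
      rw [mem_insert, mP] at hq
      rw [mem_filter]
      rcases hq with rfl | hq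
      · exact ⟨hu, Or.inr hu'.2⟩
      · exact ⟨hq.1, Or.inl hq.2⟩
    exact num X.card D (P u').card (∑ u ∈ X, (P u).card) hd8 hDX h7 hDe' (by omega)
  · push Not at hA
    have h2 : ∀ u ∈ X, 2 ≤ (P u).card := by
      intro u hu
      have h3 := hPpos u hu
      have h4 := hA u hu
      omega
    have h3 : X.card * 2 ≤ ∑ u ∈ X, (P u).card := by
      rw [← smul_eq_mul]
      exact card_nsmul_le_sum X _ 2 h2
    have hX8 : X.card = 8 := by
      have h4 : 8 * X.card ≤ X.card ^ 2 := by omega
      have h5 : 0 < X.card := by rw [card_pos]; exact hXne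
      have h6 : 8 ≤ X.card := by
        by_contra h7
        push Not at h7
        interval_cases X.card <;> omega
      omega
    have h4 : ∀ u ∈ X, (P u).card = 2 := by
      intro u hu
      by_contra h5
      have h6 : ∑ _u ∈ X, 2 < ∑ u ∈ X, (P u).card := by
        refine sum_lt_sum h2 ⟨u, hu, ?_⟩
        have h7 := h2 u hu
        omega
      rw [sum_const, smul_eq_mul, hX8] at h6
      rw [hX8] at hman
      omega
    have h16 : ∑ u ∈ X, (P u).card ≤ 16 := by
      rw [hX8] at hman
      omega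
    by_cases hB : ∃ p ∈ X, (W p).card ≤ 6
    · obtain ⟨u, hu, hu6⟩ := hB
      have hPne : (P u).Nonempty := by rw [← card_pos, h4 u hu]; norm_num
      obtain ⟨u', hu'⟩ := hPne
      rw [mP] at hu'
      have h5 : ∀ y ∈ (W u).filter (fun y => r u' y), 2 ≤ x y := by
        intro y hy
        rw [mem_filter, mW] at hy
        have h6 := hkey u hu u' hu'.1 hu'.2 y hy.1.1 hy.1.2 hy.2
        have h7 := hmle u u'
        have h8 := hm u'
        have h9 := hge u' hu'.1
        rw [h4 u hu, h4 u' hu'.1] at h6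
        rw [h4 u' hu'.1] at h9
        omega
      have h6 := hsumC _ ((filter_subset _ _).trans (hWY u)) 2 h5
      have h7 : ((W u).filter (fun y => r u' y)).card + ((W u).filter (fun y => ¬ r u' y)).card =
          (W u).card := card_filter_add_card_filter_not _
      have h8 := hmle u u'
      have h9 := hm u'
      have h10 := hge u' hu'.1
      have h11 := hge u hu
      rw [h4 u' hu'.1] at h10
      rw [h4 u hu] at h11
      omega
    · push Not at hB
      obtain ⟨u, hu⟩ := hXne
      have hPne : (P u).Nonempty := by rw [← card_pos, h4 u hu]; norm_num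
      obtain ⟨u', hu'⟩ := hPne
      rw [mP] at hu'
      have h5 : ∀ p ∈ X, (Y.filter (fun y => ¬ r p y)).card = 0 := by
        intro p hp
        have h6 := hB p hp
        have h7 := hm p
        omega
      have h6 : ∑ p ∈ X, (Y.filter (fun y => ¬ r p y)).card = 0 := sum_eq_zero h5
      have h7 : ∀ y ∈ W u', 2 ≤ x y := by
        intro y hy
        rw [mW] at hy
        have h8 : r u y := by
          by_contra h9
          have h10 := h5 u hu
          rw [card_eq_zero, filter_eq_empty_iff] at h10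
          exact h10 hy.1 h9
        have h9 := hkey u hu u' hu'.1 hu'.2 y hy.1 h8 hy.2
        have h10 := hmle u u'
        have h11 := h5 u' hu'.1
        have h12 := hWYc u
        rw [h4 u hu, h4 u' hu'.1] at h9
        omega
      have h8 := hsumC (W u') (hWY u') 2 h7
      have h9 := hB u' hu'.1
      omega

end

end Vale.Agent.P038
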